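import Mathlib

namespace Vale.Agent.Lib.P032

open Polynomial

instance fact_prime_eleven : Fact (Nat.Prime 11) := ⟨by norm_num⟩

/-- `11` is not a square in the field of 11-adic numbers. -/
lemma eleven_not_sq (r : ℚ_[11]) : r ^ 2 ≠ 11 + 0 * r := by
  intro h
  have h1 : r ^ 2 = ((11 : ℕ) : ℚ_[11]) := by simpa using h
  have h2 := congrArg Padic.valuation h1
  rw [Padic.valuation_pow, Padic.valuation_p] at h2
  push_cast at h2
  omega

instance fact_not_sq : Fact (∀ r : ℚ_[11], r ^ 2 ≠ 11 + 0 * r) := ⟨eleven_not_sq⟩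

/-- The ramified quadratic extension `ℚ₁₁(√11)`. -/
abbrev E : Type := QuadraticAlgebra ℚ_[11] 11 0

lemma zmod_aniso : ∀ s : ZMod 11, 1 + s ^ 2 ≠ 0 := by decide

lemma norm_one_add_sq (t : ℚ_[11]) (ht : ‖t‖ ≤ 1) : ‖1 + t ^ 2‖ = 1 := by
  set T : ℤ_[11] := ⟨t, ht⟩ with hT
  have hu : ‖(1 + T ^ 2 : ℤ_[11])‖ = 1 := by
    by_contra hne
    have hlt : ‖(1 + T ^ 2 : ℤ_[11])‖ < 1 := lt_of_le_of_ne (PadicInt.norm_le_one _) hne
    have hmem : (1 + T ^ 2 : ℤ_[11]) ∈ IsLocalRing.maximalIdeal ℤ_[11] := by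
      rw [IsLocalRing.mem_maximalIdeal, PadicInt.mem_nonunits]
      exact hlt
    rw [← PadicInt.ker_toZMod, RingHom.mem_ker] at hmem
    simp only [map_add, map_one, map_pow] at hmem
    exact zmod_aniso _ hmem
  have : ((1 + T ^ 2 : ℤ_[11]) : ℚ_[11]) = 1 + t ^ 2 := by
    push_cast
    rfl
  rw [← this]
  exact hu

lemma norm_sq_add_sq_of_le (a c : ℚ_[11]) (h : ‖c‖ ≤ ‖a‖) : ‖a ^ 2 + c ^ 2‖ = ‖a‖ ^ 2 := by
  by_cases ha : a = 0
  · subst ha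
    have : c = 0 := by simpa using h
    subst this
    simp
  · have hna : 0 < ‖a‖ := norm_pos_iff.mpr ha
    have ht : ‖c / a‖ ≤ 1 := by
      rw [norm_div]
      exact (div_le_one hna).mpr h
    have h1 := norm_one_add_sq (c / a) ht
    have h2 : a ^ 2 + c ^ 2 = a ^ 2 * (1 + (c / a) ^ 2) := by
      field_simp
    rw [h2, norm_mul, h1, norm_pow, mul_one]

lemma norm_sq_add_sq (a c : ℚ_[11]) : ‖a ^ 2 + c ^ 2‖ = (max ‖a‖ ‖c‖) ^ 2 := by
  rcases le_total ‖c‖ ‖a‖ with h | h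
  · rw [max_eq_left h, norm_sq_add_sq_of_le a c h]
  · rw [max_eq_right h, add_comm, norm_sq_add_sq_of_le c a h]


lemma norm_eleven : ‖(11 : ℚ_[11])‖ = 11⁻¹ := by
  have := Padic.norm_p (p := 11)
  simpa using this

lemma norm_parity (e g : ℚ_[11]) (h : ‖e‖ ^ 2 = 11⁻¹ * ‖g‖ ^ 2) : e = 0 ∧ g = 0 := by
  by_cases he : e = 0
  · subst he
    simp at h
    exact ⟨rfl, h⟩
  by_cases hg : g = 0
  · subst hg
    simp at h
    exact absurd h he
  exfalso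
  rw [Padic.norm_eq_zpow_neg_valuation he, Padic.norm_eq_zpow_neg_valuation hg] at h
  have h11 : ((11 : ℕ) : ℝ) ≠ 0 := by norm_num
  have h2 : ((11 : ℕ) : ℝ) ^ (2 * (-e.valuation)) = ((11 : ℕ) : ℝ) ^ (-1 + 2 * (-g.valuation)) := by
    rw [zpow_add₀ h11, zpow_neg_one, two_mul, two_mul, zpow_add₀ h11, zpow_add₀ h11, ← sq, ← sq]
    simpa using h
  have h3 := zpow_right_injective₀ (a := ((11 : ℕ) : ℝ)) (by norm_num) (by norm_num) h2
  omega

lemma integral_of_eq_one (a b c d : ℚ_[11])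
    (h : a ^ 2 + 11 * b ^ 2 + (c ^ 2 + 11 * d ^ 2) = 1) :
    ‖a‖ ≤ 1 ∧ ‖b‖ ≤ 1 ∧ ‖c‖ ≤ 1 ∧ ‖d‖ ≤ 1 := by
  have hX := norm_sq_add_sq a c
  have hY : ‖11 * (b ^ 2 + d ^ 2)‖ = 11⁻¹ * (max ‖b‖ ‖d‖) ^ 2 := by
    rw [norm_mul, norm_eleven, norm_sq_add_sq]
  have hsum : (a ^ 2 + c ^ 2) + 11 * (b ^ 2 + d ^ 2) = 1 := by
    rw [← h]; ring
  have hne : ‖a ^ 2 + c ^ 2‖ ≠ ‖11 * (b ^ 2 + d ^ 2)‖ := by
    intro heq
    rw [hX, hY] at heq
    -- pick witnesses of the maxima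
    obtain ⟨e, he, hea⟩ : ∃ e : ℚ_[11], ‖e‖ = max ‖a‖ ‖c‖ ∧ (e = 0 → a = 0 ∧ c = 0) := by
      rcases le_total ‖c‖ ‖a‖ with hh | hh
      · refine ⟨a, (max_eq_left hh).symm, fun h0 => ⟨h0, ?_⟩⟩
        subst h0
        simpa using hh
      · refine ⟨c, (max_eq_right hh).symm, fun h0 => ⟨?_, h0⟩⟩
        subst h0
        simpa using hh
    obtain ⟨g, hg, hgb⟩ : ∃ g : ℚ_[11], ‖g‖ = max ‖b‖ ‖d‖ ∧ (g = 0 → b = 0 ∧ d = 0) := by
      rcases le_total ‖d‖ ‖b‖ with hh | hh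
      · refine ⟨b, (max_eq_left hh).symm, fun h0 => ⟨h0, ?_⟩⟩
        subst h0
        simpa using hh
      · refine ⟨d, (max_eq_right hh).symm, fun h0 => ⟨?_, h0⟩⟩
        subst h0
        simpa using hh
    rw [← he, ← hg] at heq
    obtain ⟨e0, g0⟩ := norm_parity e g heq
    obtain ⟨a0, c0⟩ := hea e0
    obtain ⟨b0, d0⟩ := hgb g0
    subst a0 c0 b0 d0
    simp at hsum
  have hmax := Padic.add_eq_max_of_ne hne
  rw [hsum, norm_one, hX, hY] at hmax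
  have h1 : (max ‖a‖ ‖c‖) ^ 2 ≤ 1 := by rw [hmax]; exact le_max_left _ _
  have h2 : 11⁻¹ * (max ‖b‖ ‖d‖) ^ 2 ≤ 1 := by rw [hmax]; exact le_max_right _ _
  have hA : max ‖a‖ ‖c‖ ≤ 1 := by
    have h0 : 0 ≤ max ‖a‖ ‖c‖ := le_max_of_le_left (norm_nonneg _)
    nlinarith
  have hB : max ‖b‖ ‖d‖ < 11 := by
    have h0 : 0 ≤ max ‖b‖ ‖d‖ := le_max_of_le_left (norm_nonneg _)
    nlinarith
  have key : ∀ x : ℚ_[11], ‖x‖ < 11 → ‖x‖ ≤ 1 := by
    intro x hx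
    have := (Padic.norm_lt_pow_iff_norm_le_pow_sub_one x 1).mp (by simpa using hx)
    simpa using this
  exact ⟨le_trans (le_max_left _ _) hA, key _ (lt_of_le_of_lt (le_max_left _ _) hB),
    le_trans (le_max_right _ _) hA, key _ (lt_of_le_of_lt (le_max_right _ _) hB)⟩



/-- A proper 5-colouring of the unit-distance graph of the plane over `𝔽₁₁`, stored in base 5. -/
def tbl : ℕ :=
  3065746986921058553071587655906122234609716074494471849520362725186253721905092104880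

def col (x y : ZMod 11) : Fin 5 := ⟨tbl / 5 ^ (11 * y.val + x.val) % 5, Nat.mod_lt _ (by norm_num)⟩

set_option maxRecDepth 100000 in
lemma col_proper : ∀ x y dx dy : ZMod 11, dx ^ 2 + dy ^ 2 = 1 → col (x + dx) (y + dy) ≠ col x y := by
  decide +kernel



/-- reduction mod 11 of an 11-adic number (junk value `0` off the 11-adic integers) -/
noncomputable def red (s : ℚ_[11]) : ZMod 11 :=
  if h : ‖s‖ ≤ 1 then PadicInt.toZMod (⟨s, h⟩ : ℤ_[11]) else 0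

lemma red_coe (S : ℤ_[11]) : red (S : ℚ_[11]) = PadicInt.toZMod S := by
  unfold red
  rw [dif_pos S.2]
  rfl

lemma red_sub {s t : ℚ_[11]} (hs : ‖s‖ ≤ 1) (ht : ‖t‖ ≤ 1) : red (s - t) = red s - red t := by
  obtain ⟨S, rfl⟩ : ∃ S : ℤ_[11], (S : ℚ_[11]) = s := ⟨⟨s, hs⟩, rfl⟩
  obtain ⟨T, rfl⟩ : ∃ T : ℤ_[11], (T : ℚ_[11]) = t := ⟨⟨t, ht⟩, rfl⟩
  rw [← PadicInt.coe_sub, red_coe, red_coe, red_coe, map_sub]

/-- a choice of representative of the class of `t` modulo the 11-adic integers -/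
noncomputable def rep (t : ℚ_[11]) : ℚ_[11] :=
  Quotient.out (QuotientAddGroup.mk t : ℚ_[11] ⧸ (PadicInt.subring 11).toAddSubgroup)

lemma norm_sub_rep (t : ℚ_[11]) : ‖t - rep t‖ ≤ 1 := by
  have h : (QuotientAddGroup.mk (rep t) : ℚ_[11] ⧸ (PadicInt.subring 11).toAddSubgroup)
      = QuotientAddGroup.mk t := Quotient.out_eq _
  rw [QuotientAddGroup.eq] at h
  have h2 : -rep t + t ∈ PadicInt.subring 11 := h
  have h3 : ‖-rep t + t‖ ≤ 1 := h2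
  rwa [neg_add_eq_sub] at h3

lemma rep_eq {s t : ℚ_[11]} (h : ‖s - t‖ ≤ 1) : rep s = rep t := by
  have : (QuotientAddGroup.mk s : ℚ_[11] ⧸ (PadicInt.subring 11).toAddSubgroup)
      = QuotientAddGroup.mk t := by
    rw [QuotientAddGroup.eq]
    have h2 : ‖-s + t‖ ≤ 1 := by
      rw [neg_add_eq_sub, norm_sub_rev]; exact h
    exact h2
  unfold rep
  rw [this]

/-- the residue of an arbitrary 11-adic number relative to the chosen representative -/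
noncomputable def res (t : ℚ_[11]) : ZMod 11 := red (t - rep t)

lemma res_sub {s t : ℚ_[11]} (h : ‖s - t‖ ≤ 1) : res s = res t + red (s - t) := by
  unfold res
  have h1 := red_sub (norm_sub_rep s) (by rw [rep_eq h]; exact norm_sub_rep t : ‖t - rep s‖ ≤ 1)
  have h2 : s - rep s - (t - rep s) = s - t := by ring
  rw [h2] at h1
  rw [h1, rep_eq h]
  ring



lemma exists_sqrt_padicInt (n : ℕ) (r0 : ZMod 11) (h0 : r0 ≠ 0) (h : r0 ^ 2 = (n : ZMod 11)) :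
    ∃ z : ℤ_[11], z ^ 2 = (n : ℤ_[11]) := by
  set F : Polynomial ℤ_[11] := X ^ 2 - C (n : ℤ_[11]) with hFdef
  set a : ℤ_[11] := (r0.val : ℤ_[11]) with hadef
  have ha : PadicInt.toZMod a = r0 := by
    rw [hadef, map_natCast, ZMod.natCast_zmod_val]
  have hF : F.aeval a = a ^ 2 - n := by simp [hFdef]
  have hF' : F.derivative.aeval a = 2 * a := by
    simp only [hFdef, derivative_sub, derivative_X_pow, derivative_C, sub_zero, map_mul, aeval_C,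
      aeval_X, map_pow, Nat.cast_ofNat]
    norm_num
  have h1 : ‖F.aeval a‖ < 1 := by
    rw [hF, ← PadicInt.mem_nonunits, ← IsLocalRing.mem_maximalIdeal, ← PadicInt.ker_toZMod,
      RingHom.mem_ker]
    simp [ha, h]
  have h2 : ‖F.derivative.aeval a‖ = 1 := by
    rw [hF']
    by_contra hne
    have hlt := lt_of_le_of_ne (PadicInt.norm_le_one _) hne
    rw [← PadicInt.mem_nonunits, ← IsLocalRing.mem_maximalIdeal, ← PadicInt.ker_toZMod,
      RingHom.mem_ker, map_mul, ha] at hlt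
    have h2' : PadicInt.toZMod (2 : ℤ_[11]) = (2 : ZMod 11) := map_ofNat _ 2
    rw [h2'] at hlt
    have : ∀ r : ZMod 11, 2 * r = 0 → r = 0 := by decide
    exact h0 (this _ hlt)
  obtain ⟨z, hz, -⟩ := hensels_lemma (F := F) (a := a) (by rw [h2]; simpa using h1)
  refine ⟨z, ?_⟩
  have : z ^ 2 - (n : ℤ_[11]) = 0 := by simpa [hFdef] using hz
  exact sub_eq_zero.mp this

lemma exists_sqrt_E (n : ℕ)
    (h : n = 11 ∨ ∃ r0 : ZMod 11, r0 ≠ 0 ∧ r0 ^ 2 = (n : ZMod 11)) :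
    ∃ z : E, z ^ 2 = (n : E) := by
  rcases h with rfl | ⟨r0, h0, h⟩
  · refine ⟨QuadraticAlgebra.omega, ?_⟩
    rw [sq, QuadraticAlgebra.omega_mul_omega_eq_mk]
    ext
    · exact (QuadraticAlgebra.re_natCast 11).symm
    · exact (QuadraticAlgebra.im_natCast 11).symm
  · obtain ⟨z, hz⟩ := exists_sqrt_padicInt n r0 h0 h
    refine ⟨algebraMap ℚ_[11] E (z : ℚ_[11]), ?_⟩
    rw [← map_pow]
    have : ((z : ℚ_[11])) ^ 2 = (n : ℚ_[11]) := by exact_mod_cast congrArg (fun t : ℤ_[11] => (t : ℚ_[11])) hz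
    rw [this, map_natCast]

lemma nonempty_algHom (S : Set ℝ)
    (hS : ∀ s ∈ S, ∃ n : ℕ, s ^ 2 = n ∧ (n = 11 ∨ ∃ r0 : ZMod 11, r0 ≠ 0 ∧ r0 ^ 2 = (n : ZMod 11))) :
    Nonempty (IntermediateField.adjoin ℚ S →ₐ[ℚ] E) := by
  apply IntermediateField.nonempty_algHom_adjoin_of_splits
  intro s hs
  obtain ⟨n, hn, hr⟩ := hS s hs
  obtain ⟨z, hz⟩ := exists_sqrt_E n hr
  set P : ℚ[X] := X ^ 2 - C (n : ℚ) with hP
  have hmonic : P.Monic := by
    rw [hP]; exact monic_X_pow_sub_C _ (by norm_num)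
  have hroot : aeval s P = 0 := by
    simp [hP, hn]
  have hint : IsIntegral ℚ s := ⟨P, hmonic, by simpa [aeval_def] using hroot⟩
  refine ⟨hint, ?_⟩
  have hdvd : minpoly ℚ s ∣ P := minpoly.dvd ℚ s hroot
  have hdvd' : (minpoly ℚ s).map (algebraMap ℚ E) ∣ P.map (algebraMap ℚ E) :=
    Polynomial.map_dvd _ hdvd
  have hPm : (P.map (algebraMap ℚ E)).Monic := hmonic.map _
  refine Splits.of_dvd ?_ hPm.ne_zero hdvd'
  apply Splits.of_natDegree_eq_two (x := z)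
  · rw [hmonic.natDegree_map, hP]
    exact natDegree_X_pow_sub_C
  · simp [hP, hz]



lemma E_unit (z w : E) (h : z ^ 2 + w ^ 2 = 1) :
    ‖z.re‖ ≤ 1 ∧ ‖w.re‖ ≤ 1 ∧ red z.re ^ 2 + red w.re ^ 2 = 1 := by
  have hre := congrArg QuadraticAlgebra.re h
  simp only [sq, QuadraticAlgebra.re_add, QuadraticAlgebra.re_mul, QuadraticAlgebra.re_one] at hre
  have h' : z.re ^ 2 + 11 * z.im ^ 2 + (w.re ^ 2 + 11 * w.im ^ 2) = 1 := by
    rw [← hre]; ring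
  obtain ⟨ha, hb, hc, hd⟩ := integral_of_eq_one _ _ _ _ h'
  refine ⟨ha, hc, ?_⟩
  obtain ⟨A, hA⟩ : ∃ A : ℤ_[11], (A : ℚ_[11]) = z.re := ⟨⟨_, ha⟩, rfl⟩
  obtain ⟨B, hB⟩ : ∃ B : ℤ_[11], (B : ℚ_[11]) = z.im := ⟨⟨_, hb⟩, rfl⟩
  obtain ⟨C, hC⟩ : ∃ C : ℤ_[11], (C : ℚ_[11]) = w.re := ⟨⟨_, hc⟩, rfl⟩
  obtain ⟨D, hD⟩ : ∃ D : ℤ_[11], (D : ℚ_[11]) = w.im := ⟨⟨_, hd⟩, rfl⟩
  rw [← hA, ← hC, red_coe, red_coe]
  have hZ : A ^ 2 + 11 * B ^ 2 + (C ^ 2 + 11 * D ^ 2) = 1 := by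
    apply Subtype.ext
    push_cast
    rw [hA, hB, hC, hD]
    exact h'
  have h2 := congrArg PadicInt.toZMod hZ
  simp only [map_add, map_mul, map_pow, map_one, map_ofNat] at h2
  have h11 : (11 : ZMod 11) = 0 := by decide
  rw [h11] at h2
  simpa using h2

theorem colouring_of_hom (K : IntermediateField ℚ ℝ) (ι : K →+* E) :
    ∃ c : EuclideanSpace ℝ (Fin 2) → Fin 5, ∀ x y : EuclideanSpace ℝ (Fin 2),
      (∀ i, x i ∈ K) → (∀ i, y i ∈ K) → dist x y = 1 → c x ≠ c y := by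
  classical
  refine ⟨fun x => if h : ∀ i, x i ∈ K then
    col (res (ι ⟨x 0, h 0⟩).re) (res (ι ⟨x 1, h 1⟩).re) else 0, ?_⟩
  intro x y hx hy hd
  simp only [dif_pos hx, dif_pos hy]
  have hd2 : (x 0 - y 0) ^ 2 + (x 1 - y 1) ^ 2 = 1 := by
    rw [EuclideanSpace.dist_eq, Fin.sum_univ_two, Real.sqrt_eq_one] at hd
    simpa [Real.dist_eq, sq_abs] using hd
  set X0 : K := ⟨x 0, hx 0⟩
  set X1 : K := ⟨x 1, hx 1⟩
  set Y0 : K := ⟨y 0, hy 0⟩
  set Y1 : K := ⟨y 1, hy 1⟩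
  have hK : (X0 - Y0) ^ 2 + (X1 - Y1) ^ 2 = 1 := by
    apply Subtype.ext
    push_cast
    exact hd2
  have hE : (ι X0 - ι Y0) ^ 2 + (ι X1 - ι Y1) ^ 2 = 1 := by
    have := congrArg ι hK
    simpa only [map_add, map_pow, map_sub, map_one] using this
  obtain ⟨h0, h1, hr⟩ := E_unit _ _ hE
  rw [QuadraticAlgebra.re_sub] at h0 h1 hr
  rw [QuadraticAlgebra.re_sub] at hr
  rw [res_sub h0, res_sub h1]
  exact col_proper _ _ _ _ hr


/-- Main consequence: the plane over any field generated by `√11` and square roots of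
natural numbers that are nonzero squares modulo `11` is properly 5-colourable. -/
theorem colouring_of_adjoin (S : Set ℝ)
    (hS : ∀ s ∈ S, ∃ n : ℕ, s ^ 2 = n ∧
      (n = 11 ∨ ∃ r0 : ZMod 11, r0 ≠ 0 ∧ r0 ^ 2 = (n : ZMod 11))) :
    ∃ c : EuclideanSpace ℝ (Fin 2) → Fin 5, ∀ x y : EuclideanSpace ℝ (Fin 2),
      (∀ i, x i ∈ IntermediateField.adjoin ℚ S) → (∀ i, y i ∈ IntermediateField.adjoin ℚ S) →
      dist x y = 1 → c x ≠ c y := by
  obtain ⟨f⟩ := nonempty_algHom S hS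
  exact colouring_of_hom _ f.toRingHom

end Vale.Agent.Lib.P032
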