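import Vale.Agent.Lib.P032.Tables

/-! Colourings of planes over real fields that embed into a field of `p`-adic numbers. -/

namespace Vale.Agent.Lib.P032

section general

variable {K : Type} [Field K] (O : ValuationSubring K) {R : Type} [CommRing R] (φ : O →+* R)

lemma inv_ker2 (hφ : ∀ z : O, ¬ IsUnit z → φ z ^ 2 = 0) (a : K) (ha : a ∉ O) :
    ∃ z : O, (z : K) = a⁻¹ ∧ φ z ^ 2 = 0 := by
  have hinv : a⁻¹ ∈ O := (O.mem_or_inv_mem a).resolve_left ha
  refine ⟨⟨a⁻¹, hinv⟩, rfl, hφ _ ?_⟩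
  intro hu
  obtain ⟨w, hw⟩ := hu.exists_right_inv
  have h1 : a⁻¹ * (w : K) = 1 := by
    have := congrArg (Subtype.val) hw
    simpa using this
  have ha0 : a ≠ 0 := by
    rintro rfl
    exact ha O.zero_mem
  have h2 : (w : K) = a := by
    field_simp at h1
    exact h1
  exact ha (h2 ▸ w.2)

lemma mem_of_sq_add_sq2 (hφ : ∀ z : O, ¬ IsUnit z → φ z ^ 2 = 0) (hk : ∀ s : R, 1 + s ^ 2 ≠ 0)
    (a b : K) (h : a ^ 2 + b ^ 2 = 1) : a ∈ O := by
  by_contra ha
  obtain ⟨z, hz, hz0⟩ := inv_ker2 O φ hφ a ha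
  have ha0 : a ≠ 0 := by
    rintro rfl
    exact ha O.zero_mem
  by_cases ht : b * a⁻¹ ∈ O
  · have e : (1 + (⟨b * a⁻¹, ht⟩ : O) ^ 2 : O) = z ^ 2 := by
      apply Subtype.ext
      push_cast
      rw [hz]
      field_simp
      linear_combination h
    have := congrArg φ e
    rw [map_add, map_one, map_pow, map_pow, hz0] at this
    exact hk _ this
  · have hb00 : b ≠ 0 := by
      rintro rfl
      exact ht (by rw [zero_mul]; exact O.zero_mem)
    have ht := (O.mem_or_inv_mem (b * a⁻¹)).resolve_left ht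
    have hb : b ∉ O := by
      intro hb
      have : a = (b * a⁻¹)⁻¹ * b := by
        field_simp
      exact ha (this ▸ O.mul_mem _ _ ht hb)
    obtain ⟨y, hy, hy0⟩ := inv_ker2 O φ hφ b hb
    have hb0 : b ≠ 0 := by
      rintro rfl
      exact hb O.zero_mem
    have e : (1 + (⟨(b * a⁻¹)⁻¹, ht⟩ : O) ^ 2 : O) = y ^ 2 := by
      apply Subtype.ext
      push_cast
      rw [hy]
      field_simp
      linear_combination h
    have := congrArg φ e
    rw [map_add, map_one, map_pow, map_pow, hy0] at this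
    exact hk _ this

/-- the residue of `t` relative to the chosen representative of its class -/
noncomputable def resR (t : K) : R := φ ⟨t - repO O t, sub_repO_mem O t⟩

lemma resR_sub {s t : K} (h : s - t ∈ O) : resR O φ s = resR O φ t + φ ⟨s - t, h⟩ := by
  unfold resR
  rw [← map_add]
  congr 1
  apply Subtype.ext
  show s - repO O s = (t - repO O t) + (s - t)
  rw [repO_eq O h]
  ring

end general

/-- transfer along a ring morphism whose values on non-units have square zero -/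
theorem colouring_of_valuation2 (K : Subfield ℝ) (O : ValuationSubring K) {R : Type} [CommRing R]
    (φ : O →+* R) (hφ : ∀ z : O, ¬ IsUnit z → φ z ^ 2 = 0) (hk : ∀ s : R, 1 + s ^ 2 ≠ 0)
    {C : Type} (col : R → R → C)
    (hcol : ∀ x y dx dy : R, dx ^ 2 + dy ^ 2 = 1 → col (x + dx) (y + dy) ≠ col x y) :
    ∃ c : EuclideanSpace ℝ (Fin 2) → C, ∀ x y : EuclideanSpace ℝ (Fin 2),
      (∀ i, x i ∈ K) → (∀ i, y i ∈ K) → dist x y = 1 → c x ≠ c y := by
  classical
  refine ⟨fun x => if h : ∀ i, x i ∈ K then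
    col (resR O φ ⟨x 0, h 0⟩) (resR O φ ⟨x 1, h 1⟩) else col 0 0, ?_⟩
  intro x y hx hy hd
  simp only [dif_pos hx, dif_pos hy]
  have hd2 : (x 0 - y 0) ^ 2 + (x 1 - y 1) ^ 2 = 1 := by
    rw [EuclideanSpace.dist_eq, Fin.sum_univ_two, Real.sqrt_eq_one] at hd
    simpa [Real.dist_eq, sq_abs] using hd
  set X0 : K := ⟨x 0, hx 0⟩
  set X1 : K := ⟨x 1, hx 1⟩
  set Y0 : K := ⟨y 0, hy 0⟩
  set Y1 : K := ⟨y 1, hy 1⟩
  have hK : (X0 - Y0) ^ 2 + (X1 - Y1) ^ 2 = 1 := by
    apply Subtype.ext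
    push_cast
    exact hd2
  have h0 : X0 - Y0 ∈ O := mem_of_sq_add_sq2 O φ hφ hk _ _ hK
  have h1 : X1 - Y1 ∈ O := mem_of_sq_add_sq2 O φ hφ hk _ _ (by rw [add_comm]; exact hK)
  rw [resR_sub O φ h0, resR_sub O φ h1]
  apply hcol
  have e : ((⟨X0 - Y0, h0⟩ : O) ^ 2 + (⟨X1 - Y1, h1⟩ : O) ^ 2 : O) = 1 := by
    apply Subtype.ext
    push_cast
    exact hK
  have := congrArg φ e
  simpa only [map_add, map_pow, map_one] using this

section padic

variable (p : ℕ) [Fact p.Prime]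

/-- the ring of `p`-adic integers as a valuation ring of the field of `p`-adic numbers -/
noncomputable def padicO : ValuationSubring ℚ_[p] :=
  { PadicInt.subring p with
    mem_or_inv_mem' := fun x => by
      by_cases h : ‖x‖ ≤ 1
      · exact Or.inl h
      · right
        show ‖x⁻¹‖ ≤ 1
        rw [norm_inv]
        exact inv_le_one_of_one_le₀ (le_of_lt (not_le.mp h)) }

lemma mem_padicO (x : ℚ_[p]) : x ∈ padicO p ↔ ‖x‖ ≤ 1 := Iff.rfl

variable {K : Type} [Field K] (ι : K →+* ℚ_[p])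

/-- the elements of `K` that become `p`-adic integers -/
noncomputable def intO : ValuationSubring K := (padicO p).comap ι

lemma mem_intO (x : K) : x ∈ intO p ι ↔ ‖ι x‖ ≤ 1 := Iff.rfl

/-- a `p`-adic number of norm at most one, as a `p`-adic integer -/
def mkInt (x : ℚ_[p]) (h : ‖x‖ ≤ 1) : ℤ_[p] := ⟨x, h⟩

lemma coe_mkInt (x : ℚ_[p]) (h : ‖x‖ ≤ 1) : ((mkInt p x h : ℤ_[p]) : ℚ_[p]) = x := rfl

/-- the morphism to the `p`-adic integers -/
noncomputable def toInt : intO p ι →+* ℤ_[p] where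
  toFun z := mkInt p (ι z) ((mem_intO p ι z).mp z.2)
  map_one' := PadicInt.ext (by
    rw [coe_mkInt, PadicInt.coe_one]
    simp)
  map_mul' x y := PadicInt.ext (by
    rw [PadicInt.coe_mul, coe_mkInt, coe_mkInt, coe_mkInt]
    simp)
  map_zero' := PadicInt.ext (by
    rw [coe_mkInt, PadicInt.coe_zero]
    simp)
  map_add' x y := PadicInt.ext (by
    rw [PadicInt.coe_add, coe_mkInt, coe_mkInt, coe_mkInt]
    simp)

lemma norm_lt_of_not_unit (z : intO p ι) (hz : ¬ IsUnit z) : ‖toInt p ι z‖ < 1 := by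
  by_contra h
  have h1 : ‖ι (z : K)‖ = 1 := le_antisymm z.2 (not_lt.mp h)
  have hz0 : (z : K) ≠ 0 := by
    intro h0
    rw [h0, map_zero, norm_zero] at h1
    exact zero_ne_one h1
  have hinv : (z : K)⁻¹ ∈ intO p ι := by
    rw [mem_intO, map_inv₀, norm_inv, h1, inv_one]
  exact hz (isUnit_iff_exists_inv.mpr ⟨⟨(z : K)⁻¹, hinv⟩, Subtype.ext (mul_inv_cancel₀ hz0)⟩)

end padic

lemma aniso4 : ∀ s : ZMod 4, 1 + s ^ 2 ≠ 0 := by decide

lemma two_mul_sq4 : ∀ s : ZMod 4, (2 * s) ^ 2 = 0 := by decide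

def col4 (x y : ZMod 4) : Fin 2 := ⟨(x + y).val % 2, Nat.mod_lt _ (by norm_num)⟩

lemma col4_proper : ∀ x y dx dy : ZMod 4, dx ^ 2 + dy ^ 2 = 1 →
    col4 (x + dx) (y + dy) ≠ col4 x y := by
  decide +kernel

/-- reduction of the `2`-adic integers modulo `4` -/
noncomputable def modFour : ℤ_[2] →+* ZMod 4 :=
  (ZMod.ringEquivCongr (by norm_num : 2 ^ 2 = 4)).toRingHom.comp (PadicInt.toZModPow 2)

theorem two_colours (K : Subfield ℝ) (ι : K →+* ℚ_[2]) :
    ∃ c : EuclideanSpace ℝ (Fin 2) → Fin 2, ∀ x y : EuclideanSpace ℝ (Fin 2),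
      (∀ i, x i ∈ K) → (∀ i, y i ∈ K) → dist x y = 1 → c x ≠ c y := by
  refine colouring_of_valuation2 K (intO 2 ι) (modFour.comp (toInt 2 ι)) (fun z hz => ?_)
    aniso4 col4 col4_proper
  have h1 := norm_lt_of_not_unit 2 ι z hz
  obtain ⟨w, hw⟩ := (PadicInt.norm_lt_one_iff_dvd _).mp h1
  rw [RingHom.comp_apply, hw, map_mul]
  have h2 : modFour ((2 : ℕ) : ℤ_[2]) = 2 := by
    rw [map_natCast]; rfl
  rw [h2]
  exact two_mul_sq4 _

theorem odd_colours (p : ℕ) [Fact p.Prime] (K : Subfield ℝ) (ι : K →+* ℚ_[p])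
    (hk : ∀ s : ZMod p, 1 + s ^ 2 ≠ 0) {C : Type} (col : ZMod p → ZMod p → C)
    (hcol : ∀ x y dx dy : ZMod p, dx ^ 2 + dy ^ 2 = 1 → col (x + dx) (y + dy) ≠ col x y) :
    ∃ c : EuclideanSpace ℝ (Fin 2) → C, ∀ x y : EuclideanSpace ℝ (Fin 2),
      (∀ i, x i ∈ K) → (∀ i, y i ∈ K) → dist x y = 1 → c x ≠ c y :=
  colouring_of_valuation K (intO p ι) (PadicInt.toZMod.comp (toInt p ι))
    (kills_nonunits _) hk col hcol

end Vale.Agent.Lib.P032
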