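import Vale.Agent.Lib.P032.Transfer

/-! Proper colourings of the unit-distance graphs of the planes over the fields with 3, 7, 19
elements. -/

namespace Vale.Agent.Lib.P032

instance fact_prime_three : Fact (Nat.Prime 3) := ⟨by norm_num⟩
instance fact_prime_seven : Fact (Nat.Prime 7) := ⟨by norm_num⟩
instance fact_prime_nineteen : Fact (Nat.Prime 19) := ⟨by norm_num⟩

lemma aniso3 : ∀ s : ZMod 3, 1 + s ^ 2 ≠ 0 := by decide
lemma aniso7 : ∀ s : ZMod 7, 1 + s ^ 2 ≠ 0 := by decide
lemma aniso19 : ∀ s : ZMod 19, 1 + s ^ 2 ≠ 0 := by decide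

def col3 (x y : ZMod 3) : Fin 3 := ⟨(x + y).val, (x + y).val_lt⟩

lemma col3_proper : ∀ x y dx dy : ZMod 3, dx ^ 2 + dy ^ 2 = 1 →
    col3 (x + dx) (y + dy) ≠ col3 x y := by
  decide +kernel

def tbl7 : ℕ :=
  249804922541439073160748377892

def col7 (x y : ZMod 7) : Fin 4 :=
  ⟨tbl7 / 4 ^ (7 * y.val + x.val) % 4, Nat.mod_lt _ (by norm_num)⟩

set_option maxRecDepth 100000 in
lemma col7_proper : ∀ x y dx dy : ZMod 7, dx ^ 2 + dy ^ 2 = 1 →
    col7 (x + dx) (y + dy) ≠ col7 x y := by
  decide +kernel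

def tbl19 : ℕ :=
  1138091058388942057214932043156944592664947522318152061131391903874010890842092143681053272304569538744406909184218248648603243467335947779311639596263062686759607337578887287550968341292875461208305659772828846155366082447041249645569227002579790376670

def col19 (x y : ZMod 19) : Fin 5 :=
  ⟨tbl19 / 5 ^ (19 * y.val + x.val) % 5, Nat.mod_lt _ (by norm_num)⟩

set_option maxRecDepth 1000000 in
lemma col19_proper : ∀ x y dx dy : ZMod 19, dx ^ 2 + dy ^ 2 = 1 →
    col19 (x + dx) (y + dy) ≠ col19 x y := by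
  decide +kernel

end Vale.Agent.Lib.P032
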