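import Vale.Agent.Lib.P032.Eleven

/-! Transfer of colourings from the plane over the residue field of a valuation ring. -/

namespace Vale.Agent.Lib.P032

variable {K : Type} [Field K] (O : ValuationSubring K) {k : Type} [Field k] (φ : O →+* k)

/-- an element outside the valuation ring has its inverse in the kernel of `φ` -/
lemma inv_ker (hφ : ∀ z : O, ¬ IsUnit z → φ z = 0) (a : K) (ha : a ∉ O) :
    ∃ z : O, (z : K) = a⁻¹ ∧ φ z = 0 := by
  have hinv : a⁻¹ ∈ O := (O.mem_or_inv_mem a).resolve_left ha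
  refine ⟨⟨a⁻¹, hinv⟩, rfl, hφ _ ?_⟩
  intro hu
  obtain ⟨w, hw⟩ := hu.exists_right_inv
  have h1 : a⁻¹ * (w : K) = 1 := by
    have := congrArg (Subtype.val) hw
    simpa using this
  have ha0 : a ≠ 0 := by
    rintro rfl
    exact ha O.zero_mem
  have h2 : (w : K) = a := by
    field_simp at h1
    exact h1
  exact ha (h2 ▸ w.2)

lemma mem_of_sq_add_sq (hφ : ∀ z : O, ¬ IsUnit z → φ z = 0) (hk : ∀ s : k, 1 + s ^ 2 ≠ 0)
    (a b : K) (h : a ^ 2 + b ^ 2 = 1) : a ∈ O := by
  by_contra ha
  obtain ⟨z, hz, hz0⟩ := inv_ker O φ hφ a ha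
  have ha0 : a ≠ 0 := by
    rintro rfl
    exact ha O.zero_mem
  by_cases ht : b * a⁻¹ ∈ O
  · have e : (1 + (⟨b * a⁻¹, ht⟩ : O) ^ 2 : O) = z ^ 2 := by
      apply Subtype.ext
      push_cast
      rw [hz]
      field_simp
      linear_combination h
    have := congrArg φ e
    rw [map_add, map_one, map_pow, map_pow, hz0] at this
    exact hk _ (by rw [this]; ring)
  · have hb00 : b ≠ 0 := by
      rintro rfl
      exact ht (by rw [zero_mul]; exact O.zero_mem)
    have ht := (O.mem_or_inv_mem (b * a⁻¹)).resolve_left ht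
    have hb : b ∉ O := by
      intro hb
      have : a = (b * a⁻¹)⁻¹ * b := by
        field_simp
      exact ha (this ▸ O.mul_mem _ _ ht hb)
    obtain ⟨y, hy, hy0⟩ := inv_ker O φ hφ b hb
    have hb0 : b ≠ 0 := by
      rintro rfl
      exact hb O.zero_mem
    have e : (1 + (⟨(b * a⁻¹)⁻¹, ht⟩ : O) ^ 2 : O) = y ^ 2 := by
      apply Subtype.ext
      push_cast
      rw [hy]
      field_simp
      linear_combination h
    have := congrArg φ e
    rw [map_add, map_one, map_pow, map_pow, hy0] at this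
    exact hk _ (by rw [this]; ring)

/-- a choice of representative of the class of `t` modulo the valuation ring -/
noncomputable def repO (t : K) : K :=
  Quotient.out (QuotientAddGroup.mk t : K ⧸ O.toSubring.toAddSubgroup)

lemma sub_repO_mem (t : K) : t - repO O t ∈ O := by
  have h : (QuotientAddGroup.mk (repO O t) : K ⧸ O.toSubring.toAddSubgroup)
      = QuotientAddGroup.mk t := Quotient.out_eq _
  rw [QuotientAddGroup.eq] at h
  have h2 : -repO O t + t ∈ O := h
  rwa [neg_add_eq_sub] at h2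

lemma repO_eq {s t : K} (h : s - t ∈ O) : repO O s = repO O t := by
  have : (QuotientAddGroup.mk s : K ⧸ O.toSubring.toAddSubgroup)
      = QuotientAddGroup.mk t := by
    rw [QuotientAddGroup.eq]
    have h2 : -s + t ∈ O := by
      have h3 := O.neg_mem _ h
      have h4 : -(s - t) = -s + t := by ring
      rwa [h4] at h3
    exact h2
  unfold repO
  rw [this]

/-- the residue of `t` relative to the chosen representative of its class -/
noncomputable def resO (t : K) : k := φ ⟨t - repO O t, sub_repO_mem O t⟩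

lemma resO_sub {s t : K} (h : s - t ∈ O) : resO O φ s = resO O φ t + φ ⟨s - t, h⟩ := by
  unfold resO
  rw [← map_add]
  congr 1
  apply Subtype.ext
  show s - repO O s = (t - repO O t) + (s - t)
  rw [repO_eq O h]
  ring

/-- **Transfer.** If `O` is a valuation ring of the real field `K`, `φ` a ring morphism from `O` to
a field `k` that kills the non-units, `-1` is not a square in `k`, and `col` is a proper colouring
of the unit-distance graph of the plane over `k`, then the unit-distance graph on the points of the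
Euclidean plane with coordinates in `K` has a proper colouring with the same colours. -/
theorem colouring_of_valuation (K : Subfield ℝ) (O : ValuationSubring K) {k : Type} [Field k]
    (φ : O →+* k) (hφ : ∀ z : O, ¬ IsUnit z → φ z = 0) (hk : ∀ s : k, 1 + s ^ 2 ≠ 0)
    {C : Type} (col : k → k → C)
    (hcol : ∀ x y dx dy : k, dx ^ 2 + dy ^ 2 = 1 → col (x + dx) (y + dy) ≠ col x y) :
    ∃ c : EuclideanSpace ℝ (Fin 2) → C, ∀ x y : EuclideanSpace ℝ (Fin 2),
      (∀ i, x i ∈ K) → (∀ i, y i ∈ K) → dist x y = 1 → c x ≠ c y := by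
  classical
  refine ⟨fun x => if h : ∀ i, x i ∈ K then
    col (resO O φ ⟨x 0, h 0⟩) (resO O φ ⟨x 1, h 1⟩) else col 0 0, ?_⟩
  intro x y hx hy hd
  simp only [dif_pos hx, dif_pos hy]
  have hd2 : (x 0 - y 0) ^ 2 + (x 1 - y 1) ^ 2 = 1 := by
    rw [EuclideanSpace.dist_eq, Fin.sum_univ_two, Real.sqrt_eq_one] at hd
    simpa [Real.dist_eq, sq_abs] using hd
  set X0 : K := ⟨x 0, hx 0⟩
  set X1 : K := ⟨x 1, hx 1⟩
  set Y0 : K := ⟨y 0, hy 0⟩
  set Y1 : K := ⟨y 1, hy 1⟩
  have hK : (X0 - Y0) ^ 2 + (X1 - Y1) ^ 2 = 1 := by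
    apply Subtype.ext
    push_cast
    exact hd2
  have h0 : X0 - Y0 ∈ O := mem_of_sq_add_sq O φ hφ hk _ _ hK
  have h1 : X1 - Y1 ∈ O := mem_of_sq_add_sq O φ hφ hk _ _ (by rw [add_comm]; exact hK)
  rw [resO_sub O φ h0, resO_sub O φ h1]
  apply hcol
  have e : ((⟨X0 - Y0, h0⟩ : O) ^ 2 + (⟨X1 - Y1, h1⟩ : O) ^ 2 : O) = 1 := by
    apply Subtype.ext
    push_cast
    exact hK
  have := congrArg φ e
  simpa only [map_add, map_pow, map_one] using this

/-- a ring morphism from a local ring to a prime field `ZMod p` kills the non-units -/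
lemma kills_nonunits {R : Type} [CommRing R] [IsLocalRing R] {p : ℕ} [Fact p.Prime]
    (φ : R →+* ZMod p) (z : R)
    (hz : ¬ IsUnit z) : φ z = 0 := by
  by_contra h0
  have hu : IsUnit (1 - z * (((φ z)⁻¹).val : R)) := by
    have hm : z * (((φ z)⁻¹).val : R) ∈ IsLocalRing.maximalIdeal R :=
      Ideal.mul_mem_right _ _ ((IsLocalRing.mem_maximalIdeal z).mpr hz)
    by_contra hn
    have h1 : (1 - z * (((φ z)⁻¹).val : R)) ∈ IsLocalRing.maximalIdeal R :=
      (IsLocalRing.mem_maximalIdeal _).mpr hn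
    have h2 := Ideal.add_mem _ h1 hm
    rw [sub_add_cancel] at h2
    exact (Ideal.ne_top_iff_one _).mp (IsLocalRing.maximalIdeal.isMaximal R).ne_top h2
  have h3 : φ (1 - z * (((φ z)⁻¹).val : R)) = 0 := by
    rw [map_sub, map_one, map_mul, map_natCast, ZMod.natCast_zmod_val, mul_inv_cancel₀ h0, sub_self]
  exact (hu.map φ).ne_zero h3

end Vale.Agent.Lib.P032
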